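import Mathlib

/-!
Gallai-Milgram for the acyclic orientation given by a rank function: paths are lists whose rank
decreases strictly, the head being the terminal vertex.
-/

open Finset

open scoped Classical

namespace Vale.Agent.Lib.P048

noncomputable section

variable {V : Type} [Fintype V]

/-- A cover of `U` by pairwise disjoint rank-decreasing paths. -/
structure Cover (G : SimpleGraph V) (r : V → ℕ) (U : Finset V) (Ps : Finset (List V)) : Prop where
  ne : ∀ P ∈ Ps, P ≠ []
  dec : ∀ P ∈ Ps, P.Pairwise (fun x y => r y < r x)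
  chain : ∀ P ∈ Ps, P.IsChain G.Adj
  disj : ∀ P ∈ Ps, ∀ Q ∈ Ps, P ≠ Q → P.Disjoint Q
  mem : ∀ v, v ∈ U ↔ ∃ P ∈ Ps, v ∈ P

/-- Terminal vertices of a family of paths. -/
def ter (Ps : Finset (List V)) : Finset V := Finset.univ.filter (fun v => ∃ l, (v :: l) ∈ Ps)

lemma mem_ter {Ps : Finset (List V)} {v : V} : v ∈ ter Ps ↔ ∃ l, (v :: l) ∈ Ps := by
  simp [ter]

variable {G : SimpleGraph V} {r : V → ℕ}

lemma addSingle {U' : Finset V} {Qs : Finset (List V)} (h : Cover G r U' Qs) {v1 : V}
    (hv : v1 ∉ U') :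
    Cover G r (insert v1 U') (insert [v1] Qs) ∧
      ∀ x, x ∈ ter (insert [v1] Qs) ↔ x = v1 ∨ x ∈ ter Qs := by
  have hnot : ∀ P ∈ Qs, v1 ∉ P := fun P hP hm => hv ((h.mem v1).2 ⟨P, hP, hm⟩)
  have hsing : ([v1] : List V) ∉ Qs := fun hs => hnot _ hs (by simp)
  refine ⟨⟨?_, ?_, ?_, ?_, ?_⟩, ?_⟩
  · intro P hP
    rcases Finset.mem_insert.1 hP with rfl | hP
    · simp
    · exact h.ne P hP
  · intro P hP
    rcases Finset.mem_insert.1 hP with rfl | hP
    · simp
    · exact h.dec P hP
  · intro P hP
    rcases Finset.mem_insert.1 hP with rfl | hP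
    · exact List.IsChain.singleton _
    · exact h.chain P hP
  · intro P hP Q hQ hne
    rcases Finset.mem_insert.1 hP with rfl | hP <;> rcases Finset.mem_insert.1 hQ with rfl | hQ
    · exact absurd rfl hne
    · exact List.singleton_disjoint.2 (hnot Q hQ)
    · exact List.disjoint_singleton.2 (hnot P hP)
    · exact h.disj P hP Q hQ hne
  · intro x
    simp only [Finset.mem_insert, exists_eq_or_imp, List.mem_singleton, h.mem x]
  · intro x
    simp only [mem_ter, Finset.mem_insert]
    constructor
    · rintro ⟨l, h1 | h1⟩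
      · left
        simpa using (List.cons.inj h1).1
      · exact Or.inr ⟨l, h1⟩
    · rintro (rfl | ⟨l, h1⟩)
      · exact ⟨[], Or.inl rfl⟩
      · exact ⟨l, Or.inr h1⟩

lemma extend {U' : Finset V} {Qs : Finset (List V)} (h : Cover G r U' Qs) {v1 v' : V} {l : List V}
    (hv : v1 ∉ U') (hQ : (v' :: l) ∈ Qs) (hadj : G.Adj v1 v') (hr : r v' < r v1) :
    Cover G r (insert v1 U') (insert (v1 :: v' :: l) (Qs.erase (v' :: l))) ∧
      ∀ x, x ∈ ter (insert (v1 :: v' :: l) (Qs.erase (v' :: l))) ↔
        x = v1 ∨ (x ∈ ter Qs ∧ x ≠ v') := by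
  have hnot : ∀ P ∈ Qs, v1 ∉ P := fun P hP hm => hv ((h.mem v1).2 ⟨P, hP, hm⟩)
  have hdisj : ∀ P ∈ Qs, P ≠ v' :: l → v' ∉ P := by
    intro P hP hne hm
    exact (h.disj P hP _ hQ hne) hm (by simp)
  refine ⟨⟨?_, ?_, ?_, ?_, ?_⟩, ?_⟩
  · intro P hP
    rcases Finset.mem_insert.1 hP with rfl | hP
    · simp
    · exact h.ne P (Finset.mem_of_mem_erase hP)
  · intro P hP
    rcases Finset.mem_insert.1 hP with rfl | hP
    · have h0 := h.dec _ hQ
      refine List.pairwise_cons.2 ⟨?_, h0⟩
      intro x hx
      rcases List.mem_cons.1 hx with rfl | hx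
      · exact hr
      · exact lt_trans ((List.pairwise_cons.1 h0).1 x hx) hr
    · exact h.dec P (Finset.mem_of_mem_erase hP)
  · intro P hP
    rcases Finset.mem_insert.1 hP with rfl | hP
    · exact List.IsChain.cons_cons hadj (h.chain _ hQ)
    · exact h.chain P (Finset.mem_of_mem_erase hP)
  · have key : ∀ P ∈ Qs.erase (v' :: l), (v1 :: v' :: l).Disjoint P := by
      intro P hP
      have hP1 := Finset.mem_of_mem_erase hP
      have hne := Finset.ne_of_mem_erase hP
      have h1 := h.disj P hP1 _ hQ hne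
      intro x hx hxP
      rcases List.mem_cons.1 hx with rfl | hx
      · exact hnot P hP1 hxP
      · exact h1 hxP hx
    intro P hP Q hQ' hne
    rcases Finset.mem_insert.1 hP with rfl | hP <;> rcases Finset.mem_insert.1 hQ' with rfl | hQ'
    · exact absurd rfl hne
    · exact key Q hQ'
    · exact (key P hP).symm
    · exact h.disj P (Finset.mem_of_mem_erase hP) Q (Finset.mem_of_mem_erase hQ') hne
  · intro x
    constructor
    · intro hx
      rcases Finset.mem_insert.1 hx with rfl | hx
      · exact ⟨_, Finset.mem_insert_self _ _, by simp⟩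
      · obtain ⟨P, hP, hxP⟩ := (h.mem x).1 hx
        by_cases hPe : P = v' :: l
        · subst hPe
          exact ⟨_, Finset.mem_insert_self _ _, List.mem_cons_of_mem _ hxP⟩
        · exact ⟨P, Finset.mem_insert_of_mem (Finset.mem_erase.2 ⟨hPe, hP⟩), hxP⟩
    · rintro ⟨P, hP, hxP⟩
      rcases Finset.mem_insert.1 hP with rfl | hP
      · rcases List.mem_cons.1 hxP with rfl | hxP
        · exact Finset.mem_insert_self _ _
        · exact Finset.mem_insert_of_mem ((h.mem x).2 ⟨_, hQ, hxP⟩)
      · exact Finset.mem_insert_of_mem ((h.mem x).2 ⟨P, Finset.mem_of_mem_erase hP, hxP⟩)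
  · intro x
    simp only [mem_ter, Finset.mem_insert, Finset.mem_erase]
    constructor
    · rintro ⟨m, h1 | h1⟩
      · exact Or.inl (List.cons.inj h1).1
      · right
        refine ⟨⟨m, h1.2⟩, ?_⟩
        rintro rfl
        exact hdisj _ h1.2 h1.1 (by simp)
    · rintro (rfl | ⟨⟨m, h1⟩, hx⟩)
      · exact ⟨_, Or.inl rfl⟩
      · refine ⟨m, Or.inr ⟨?_, h1⟩⟩
        intro he
        exact hx (List.cons.inj he).1

/-- Removing the terminal vertex of a path with at least two vertices. -/
lemma truncate {U : Finset V} {Ps : Finset (List V)} (h : Cover G r U Ps) {v1 v : V} {t : List V}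
    (hP1 : (v1 :: v :: t) ∈ Ps) :
    Cover G r (U.erase v1) (Ps.image (fun P => if P = v1 :: v :: t then v :: t else P)) := by
  set φ : List V → List V := fun P => if P = v1 :: v :: t then v :: t else P with hφ
  have hφ1 : φ (v1 :: v :: t) = v :: t := by simp [hφ]
  have hφ2 : ∀ P, P ≠ v1 :: v :: t → φ P = P := fun P hne => by simp [hφ, hne]
  have hsub : ∀ P, ∀ x ∈ φ P, x ∈ P := by
    intro P x hx
    by_cases hP : P = v1 :: v :: t
    · subst hP
      rw [hφ1] at hx
      exact List.mem_cons_of_mem _ hx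
    · rwa [hφ2 P hP] at hx
  have hv1 : ∀ x ∈ v :: t, r x < r v1 := (List.pairwise_cons.1 (h.dec _ hP1)).1
  refine ⟨?_, ?_, ?_, ?_, ?_⟩
  · intro P' hP'
    obtain ⟨P, hP, rfl⟩ := Finset.mem_image.1 hP'
    by_cases hPe : P = v1 :: v :: t
    · subst hPe; rw [hφ1]; simp
    · rw [hφ2 P hPe]; exact h.ne P hP
  · intro P' hP'
    obtain ⟨P, hP, rfl⟩ := Finset.mem_image.1 hP'
    by_cases hPe : P = v1 :: v :: t
    · subst hPe; rw [hφ1]; exact (List.pairwise_cons.1 (h.dec _ hP1)).2
    · rw [hφ2 P hPe]; exact h.dec P hP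
  · intro P' hP'
    obtain ⟨P, hP, rfl⟩ := Finset.mem_image.1 hP'
    by_cases hPe : P = v1 :: v :: t
    · subst hPe; rw [hφ1]; exact (h.chain _ hP1).tail
    · rw [hφ2 P hPe]; exact h.chain P hP
  · intro P' hP' Q' hQ' hne
    obtain ⟨P, hP, rfl⟩ := Finset.mem_image.1 hP'
    obtain ⟨Q, hQ, rfl⟩ := Finset.mem_image.1 hQ'
    have hPQ : P ≠ Q := fun he => hne (by rw [he])
    have h1 := h.disj P hP Q hQ hPQ
    intro x hx hy
    exact h1 (hsub P x hx) (hsub Q x hy)
  · intro x
    rw [Finset.mem_erase]
    constructor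
    · rintro ⟨hx1, hx⟩
      obtain ⟨P, hP, hxP⟩ := (h.mem x).1 hx
      refine ⟨φ P, Finset.mem_image_of_mem _ hP, ?_⟩
      by_cases hPe : P = v1 :: v :: t
      · subst hPe
        rw [hφ1]
        rcases List.mem_cons.1 hxP with rfl | hxP
        · exact absurd rfl hx1
        · exact hxP
      · rwa [hφ2 P hPe]
    · rintro ⟨P', hP', hxP'⟩
      obtain ⟨P, hP, rfl⟩ := Finset.mem_image.1 hP'
      have hxP := hsub P x hxP'
      refine ⟨?_, (h.mem x).2 ⟨P, hP, hxP⟩⟩
      intro hxe
      rw [hxe] at hxP hxP'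
      by_cases hPe : P = v1 :: v :: t
      · subst hPe
        rw [hφ1] at hxP'
        exact lt_irrefl _ (hv1 _ hxP')
      · exact (h.disj P hP _ hP1 hPe) hxP (by simp)

/-- Gallai-Milgram, inductive form. -/
theorem gm_aux [Inhabited V] (G : SimpleGraph V) (r : V → ℕ) (hr : Function.Injective r) :
    ∀ (k : ℕ) (U : Finset V), U.card = k → ∀ Ps, Cover G r U Ps →
      (∀ Qs, Cover G r U Qs → ¬ ter Qs ⊂ ter Ps) →
      ∃ c : List V → V, (∀ P ∈ Ps, c P ∈ P) ∧
        (∀ P ∈ Ps, ∀ Q ∈ Ps, P ≠ Q → ¬ G.Adj (c P) (c Q)) := by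
  intro k
  induction k using Nat.strong_induction_on with
  | _ k ih =>
  intro U hU Ps hPs hmin
  -- the core step
  have core : ∀ (v1 v2 : V) (t1 t2 : List V), (v1 :: t1) ∈ Ps → (v2 :: t2) ∈ Ps →
      G.Adj v1 v2 → r v2 < r v1 →
      ∃ c : List V → V, (∀ P ∈ Ps, c P ∈ P) ∧
        (∀ P ∈ Ps, ∀ Q ∈ Ps, P ≠ Q → ¬ G.Adj (c P) (c Q)) := by
    intro v1 v2 t1 t2 hP1 hP2 hadj hrr
    have hne12 : v1 ≠ v2 := hadj.ne
    have hv1U : v1 ∈ U := (hPs.mem v1).2 ⟨_, hP1, by simp⟩
    have hv2ter : v2 ∈ ter Ps := mem_ter.2 ⟨_, hP2⟩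
    have hv1ter : v1 ∈ ter Ps := mem_ter.2 ⟨_, hP1⟩
    have hv1notU' : v1 ∉ U.erase v1 := by simp
    have hins : insert v1 (U.erase v1) = U := Finset.insert_erase hv1U
    cases t1 with
    | nil =>
      -- merge the singleton path
      exfalso
      set Ps0 := Ps.erase [v1] with hPs0
      have hc0 : Cover G r (U.erase v1) Ps0 := by
        refine ⟨fun P hP => hPs.ne P (Finset.mem_of_mem_erase hP),
          fun P hP => hPs.dec P (Finset.mem_of_mem_erase hP),
          fun P hP => hPs.chain P (Finset.mem_of_mem_erase hP),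
          fun P hP Q hQ hne => hPs.disj P (Finset.mem_of_mem_erase hP) Q
            (Finset.mem_of_mem_erase hQ) hne, ?_⟩
        intro x
        rw [Finset.mem_erase]
        constructor
        · rintro ⟨hx1, hx⟩
          obtain ⟨P, hP, hxP⟩ := (hPs.mem x).1 hx
          refine ⟨P, Finset.mem_erase.2 ⟨?_, hP⟩, hxP⟩
          rintro rfl
          exact hx1 (by simpa using hxP)
        · rintro ⟨P, hP, hxP⟩
          have hP' := Finset.mem_of_mem_erase hP
          have hne := Finset.ne_of_mem_erase hP
          refine ⟨?_, (hPs.mem x).2 ⟨P, hP', hxP⟩⟩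
          rintro rfl
          exact (hPs.disj P hP' _ hP1 hne) hxP (by simp)
      have hP2' : (v2 :: t2) ∈ Ps0 := by
        refine Finset.mem_erase.2 ⟨?_, hP2⟩
        intro he
        exact hne12 (List.cons.inj he).1.symm
      obtain ⟨hc1, hter⟩ := extend hc0 hv1notU' hP2' hadj hrr
      rw [hins] at hc1
      apply hmin _ hc1
      refine ⟨?_, ?_⟩
      · intro x hx
        rcases (hter x).1 hx with rfl | ⟨hx, _⟩
        · exact hv1ter
        · obtain ⟨l, hl⟩ := mem_ter.1 hx
          exact mem_ter.2 ⟨l, Finset.mem_of_mem_erase hl⟩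
      · intro hsub
        have := hsub hv2ter
        rcases (hter v2).1 this with h | ⟨_, h⟩
        · exact hne12 h.symm
        · exact h rfl
    | cons v t =>
      set φ : List V → List V := fun P => if P = v1 :: v :: t then v :: t else P with hφ
      have hφ1 : φ (v1 :: v :: t) = v :: t := by simp [hφ]
      have hφ2 : ∀ P, P ≠ v1 :: v :: t → φ P = P := fun P hne => by simp [hφ, hne]
      have hc' : Cover G r (U.erase v1) (Ps.image φ) := truncate hPs hP1
      have hadj_v : G.Adj v1 v := by
        have := hPs.chain _ hP1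
        exact (List.isChain_cons_cons.1 this).1
      have hr_v : r v < r v1 := (List.pairwise_cons.1 (hPs.dec _ hP1)).1 v (by simp)
      have hter' : ∀ x, x ∈ ter (Ps.image φ) → x = v ∨ (x ∈ ter Ps ∧ x ≠ v1) := by
        intro x hx
        obtain ⟨l, hl⟩ := mem_ter.1 hx
        obtain ⟨P, hP, he⟩ := Finset.mem_image.1 hl
        by_cases hPe : P = v1 :: v :: t
        · subst hPe
          rw [hφ1] at he
          exact Or.inl (List.cons.inj he).1.symm
        · rw [hφ2 P hPe] at he
          subst he
          refine Or.inr ⟨mem_ter.2 ⟨_, hP⟩, ?_⟩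
          intro hxe
          rw [hxe] at hP hPe
          exact (hPs.disj _ hP _ hP1 hPe) (List.mem_cons_self) (List.mem_cons_self)
      have hmin' : ∀ Qs, Cover G r (U.erase v1) Qs → ¬ ter Qs ⊂ ter (Ps.image φ) := by
        intro Qs hQs hss
        have hsub := hss.1
        by_cases hvQ : v ∈ ter Qs
        · obtain ⟨l, hl⟩ := mem_ter.1 hvQ
          obtain ⟨hc1, hter⟩ := extend hQs hv1notU' hl hadj_v hr_v
          rw [hins] at hc1
          apply hmin _ hc1
          refine ⟨?_, ?_⟩
          · intro x hx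
            rcases (hter x).1 hx with rfl | ⟨hx, hxv⟩
            · exact hv1ter
            · rcases hter' x (hsub hx) with h | h
              · exact absurd h hxv
              · exact h.1
          · intro hss2
            -- the missing element
            obtain ⟨w, hw, hwQ⟩ := Finset.not_subset.1 hss.2
            rcases hter' w hw with h | ⟨h1, h2⟩
            · exact hwQ (h ▸ hvQ)
            · rcases (hter w).1 (hss2 h1) with h | ⟨h, _⟩
              · exact h2 h
              · exact hwQ h
        · -- `v` is not a terminal of the new cover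
          have hQter : ∀ x, x ∈ ter Qs → x ∈ ter Ps := by
            intro x hx
            rcases hter' x (hsub hx) with h | h
            · exact absurd (h ▸ hx) hvQ
            · exact h.1
          by_cases hv2Q : v2 ∈ ter Qs
          · obtain ⟨l, hl⟩ := mem_ter.1 hv2Q
            obtain ⟨hc1, hter⟩ := extend hQs hv1notU' hl hadj hrr
            rw [hins] at hc1
            apply hmin _ hc1
            refine ⟨?_, ?_⟩
            · intro x hx
              rcases (hter x).1 hx with rfl | ⟨hx, _⟩
              · exact hv1ter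
              · exact hQter x hx
            · intro hss2
              rcases (hter v2).1 (hss2 hv2ter) with h | ⟨_, h⟩
              · exact hne12 h.symm
              · exact h rfl
          · obtain ⟨hc1, hter⟩ := addSingle hQs hv1notU'
            rw [hins] at hc1
            apply hmin _ hc1
            refine ⟨?_, ?_⟩
            · intro x hx
              rcases (hter x).1 hx with rfl | hx
              · exact hv1ter
              · exact hQter x hx
            · intro hss2
              rcases (hter v2).1 (hss2 hv2ter) with h | h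
              · exact hne12 h.symm
              · exact hv2Q h
      have hcard : (U.erase v1).card < k := by
        rw [Finset.card_erase_of_mem hv1U, ← hU]
        have := Finset.card_pos.2 ⟨v1, hv1U⟩
        omega
      obtain ⟨c', hc'1, hc'2⟩ := ih _ hcard _ rfl _ hc' hmin'
      refine ⟨fun P => c' (φ P), ?_, ?_⟩
      · intro P hP
        have h1 := hc'1 _ (Finset.mem_image_of_mem φ hP)
        by_cases hPe : P = v1 :: v :: t
        · subst hPe
          simp only [hφ1] at h1 ⊢
          exact List.mem_cons_of_mem _ h1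
        · simpa [hφ2 P hPe] using h1
      · intro P hP Q hQ hne
        refine hc'2 _ (Finset.mem_image_of_mem φ hP) _ (Finset.mem_image_of_mem φ hQ) ?_
        -- `φ` separates distinct paths
        have hvP : ∀ R ∈ Ps, R ≠ v1 :: v :: t → v ∉ R := by
          intro R hR hne' hm
          exact (hPs.disj R hR _ hP1 hne') hm (by simp)
        intro he
        by_cases hPe : P = v1 :: v :: t
        · subst hPe
          have hQe : Q ≠ v1 :: v :: t := fun h => hne h.symm
          rw [hφ1, hφ2 Q hQe] at he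
          exact hvP Q hQ hQe (by rw [← he]; simp)
        · by_cases hQe : Q = v1 :: v :: t
          · subst hQe
            rw [hφ1, hφ2 P hPe] at he
            exact hvP P hP hPe (by rw [he]; simp)
          · rw [hφ2 P hPe, hφ2 Q hQe] at he
            exact hne he
  by_cases hind : ∀ P ∈ Ps, ∀ Q ∈ Ps, P ≠ Q → ¬ G.Adj P.headI Q.headI
  · refine ⟨fun P => P.headI, ?_, hind⟩
    intro P hP
    cases P with
    | nil => exact absurd rfl (hPs.ne _ hP)
    | cons a l => simp
  · push Not at hind
    obtain ⟨P, hP, Q, hQ, hne, hadj⟩ := hind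
    cases P with
    | nil => exact absurd rfl (hPs.ne _ hP)
    | cons a l =>
      cases Q with
      | nil => exact absurd rfl (hPs.ne _ hQ)
      | cons b m =>
        simp only [List.headI_cons] at hadj
        have hrne : r a ≠ r b := fun h => hadj.ne (hr h)
        rcases lt_or_gt_of_ne hrne with h | h
        · exact core b a m l hQ hP hadj.symm h
        · exact core a b l m hP hQ hadj h

/-- Gallai-Milgram: every vertex set has a rank-decreasing path cover with an independent
transversal. -/
theorem gm [Inhabited V] (G : SimpleGraph V) (r : V → ℕ) (hr : Function.Injective r)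
    (U : Finset V) :
    ∃ (Ps : Finset (List V)) (c : List V → V), Cover G r U Ps ∧ (∀ P ∈ Ps, c P ∈ P) ∧
      (∀ P ∈ Ps, ∀ Q ∈ Ps, P ≠ Q → ¬ G.Adj (c P) (c Q)) := by
  have hex : ∃ n, ∃ Ps, Cover G r U Ps ∧ (ter Ps).card = n := by
    refine ⟨_, U.image (fun v => [v]), ?_, rfl⟩
    refine ⟨?_, ?_, ?_, ?_, ?_⟩
    · intro P hP
      obtain ⟨v, _, rfl⟩ := Finset.mem_image.1 hP
      simp
    · intro P hP
      obtain ⟨v, _, rfl⟩ := Finset.mem_image.1 hP
      simp
    · intro P hP
      obtain ⟨v, _, rfl⟩ := Finset.mem_image.1 hP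
      exact List.IsChain.singleton _
    · intro P hP Q hQ hne
      obtain ⟨v, _, rfl⟩ := Finset.mem_image.1 hP
      obtain ⟨w, _, rfl⟩ := Finset.mem_image.1 hQ
      simp only [List.disjoint_singleton, List.mem_singleton]
      rintro rfl
      exact hne rfl
    · intro x
      constructor
      · intro hx
        exact ⟨[x], Finset.mem_image_of_mem _ hx, by simp⟩
      · rintro ⟨P, hP, hxP⟩
        obtain ⟨v, hv, rfl⟩ := Finset.mem_image.1 hP
        simp only [List.mem_singleton] at hxP
        exact hxP ▸ hv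
  obtain ⟨Ps, hPs, hcard⟩ := Nat.find_spec hex
  have hmin : ∀ Qs, Cover G r U Qs → ¬ ter Qs ⊂ ter Ps := by
    intro Qs hQs hss
    have hlt := Finset.card_lt_card hss
    rw [hcard] at hlt
    exact Nat.find_min hex hlt ⟨Qs, hQs, rfl⟩
  obtain ⟨c, h1, h2⟩ := gm_aux G r hr _ U rfl Ps hPs hmin
  exact ⟨Ps, c, hPs, h1, h2⟩

end

end Vale.Agent.Lib.P048
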