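import Vale.Agent.Lib.P048.GM

/-!
The key lemma: if `D` is an `n`-cycle in `G` and `G` has no cycle of length `n + 2`, then the number
of edges leaving `D` is at most `α(G) n`.
-/

open Finset

open scoped Classical

namespace Vale.Agent.Lib.P048

noncomputable section

variable {V : Type}

/-- `f` is a periodic parametrisation of a cycle of length `m`. -/
structure PerCycle (G : SimpleGraph V) (m : ℕ) (f : ℕ → V) : Prop where
  per : ∀ s, f (s + m) = f s
  adj : ∀ s, G.Adj (f s) (f (s + 1))
  inj : ∀ s s', s < s' → s' < s + m → f s ≠ f s'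

/-- `G` contains a cycle of length `m`. -/
def HasC (G : SimpleGraph V) (m : ℕ) : Prop := ∃ f, PerCycle G m f

variable {G : SimpleGraph V}

lemma hasC_of_list (L : List V) (hnd : L.Nodup) (hch : L.IsChain G.Adj) (hne : L ≠ [])
    (hclose : G.Adj (L.getLast hne) (L.head hne)) : HasC G L.length := by
  have hm : 0 < L.length := List.length_pos_iff.2 hne
  refine ⟨fun s => L[s % L.length]'(Nat.mod_lt _ hm), ?_, ?_, ?_⟩
  · intro s
    simp
  · intro s
    have h1 : (s + 1) % L.length = (s % L.length + 1) % L.length := by simp [Nat.add_mod]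
    have hlt := Nat.mod_lt s hm
    by_cases h2 : s % L.length + 1 < L.length
    · have h3 : (s + 1) % L.length = s % L.length + 1 := by rw [h1, Nat.mod_eq_of_lt h2]
      simp only [h3]
      exact hch.getElem _ h2
    · have h4 : s % L.length + 1 = L.length := by omega
      have h3 : (s + 1) % L.length = 0 := by rw [h1, h4, Nat.mod_self]
      simp only [h3]
      have h5 : s % L.length = L.length - 1 := by omega
      simp only [h5]
      rw [List.getLast_eq_getElem, List.head_eq_getElem] at hclose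
      exact hclose
  · intro s s' h1 h2 he
    have h3 := (List.Nodup.getElem_inj_iff hnd).1 he
    have h4 : s ≡ s' [MOD L.length] := h3
    have h5 := (Nat.modEq_iff_dvd' h1.le).1 h4
    have h6 := Nat.le_of_dvd (by omega) h5
    omega

/-- A route from `a` to `b`. -/
structure Route (G : SimpleGraph V) (a b : V) (R : List V) : Prop where
  nodup : R.Nodup
  ne : R ≠ []
  chain : R.IsChain G.Adj
  left : G.Adj a (R.head ne)
  right : G.Adj (R.getLast ne) b

lemma Route.symm {a b : V} {R : List V} (h : Route G a b R) : Route G b a R.reverse := by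
  refine ⟨List.nodup_reverse.2 h.nodup, by simpa using h.ne, ?_, ?_, ?_⟩
  · rw [List.isChain_reverse]
    exact h.chain.imp (fun _ _ hxy => hxy.symm)
  · rw [List.head_reverse]
    exact h.right.symm
  · rw [List.getLast_reverse]
    exact h.left.symm

lemma window (W : List V) (hc : W.IsChain G.Adj) (hn : W.Nodup) (a b : V) (p0 p1 t : ℕ)
    (hX : ∀ k (h : k < W.length), k ≤ p0 → G.Adj a W[k])
    (hY : ∀ k (h : k < W.length), p1 ≤ k → G.Adj W[k] b)
    (hp1 : p1 < W.length) (ht : p1 + 1 ≤ p0 + t) (ht0 : 1 ≤ t) (htW : t ≤ W.length) :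
    ∃ R : List V, R.length = t ∧ (∀ x ∈ R, x ∈ W) ∧ Route G a b R := by
  set s := min p0 (W.length - t) with hs
  have hs1 : s ≤ p0 := min_le_left _ _
  have hs2 : s + t ≤ W.length := by
    have : s ≤ W.length - t := min_le_right _ _
    omega
  have hs3 : p1 + 1 ≤ s + t := by
    rcases min_choice p0 (W.length - t) with h | h <;> rw [hs, h] <;> omega
  have hlen : ((W.drop s).take t).length = t := by
    rw [List.length_take, List.length_drop]; omega
  have hget : ∀ k (hk : k < ((W.drop s).take t).length),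
      ((W.drop s).take t)[k] = W[s + k]'(by rw [hlen] at hk; omega) := by
    intro k hk
    simp [List.getElem_take, List.getElem_drop]
  have hne : (W.drop s).take t ≠ [] := by
    intro h
    rw [h] at hlen
    simp at hlen
    omega
  refine ⟨(W.drop s).take t, hlen, ?_, ?_, hne, ?_, ?_, ?_⟩
  · intro x hx
    exact List.mem_of_mem_drop (List.mem_of_mem_take hx)
  · exact (hn.sublist (List.drop_sublist _ _)).sublist (List.take_sublist _ _)
  · exact (hc.drop s).take t
  · rw [List.head_eq_getElem, hget]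
    exact hX _ _ (by simpa using hs1)
  · rw [List.getLast_eq_getElem, hget]
    exact hY _ _ (by rw [hlen]; omega)

lemma getElem_mem_left {L1 L2 : List V} {k : ℕ} (h : k < (L1 ++ L2).length) (hk : k < L1.length) :
    (L1 ++ L2)[k] ∈ L1 := by
  rw [List.getElem_append_left hk]
  exact List.getElem_mem _

lemma getElem_mem_right {L1 L2 : List V} {k : ℕ} (h : k < (L1 ++ L2).length)
    (hk : L1.length ≤ k) : (L1 ++ L2)[k] ∈ L2 := by
  rw [List.getElem_append_right hk]
  exact List.getElem_mem _

/-- A window through a shared vertex. -/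
lemma window_mid (L1 L2 : List V) (y : V) (hc : (L1 ++ y :: L2).IsChain G.Adj)
    (hn : (L1 ++ y :: L2).Nodup) (a b : V)
    (hX : ∀ x ∈ L1, G.Adj a x) (hya : G.Adj a y) (hyb : G.Adj y b) (hY : ∀ x ∈ L2, G.Adj x b)
    (t : ℕ) (ht0 : 1 ≤ t) (htW : t ≤ (L1 ++ y :: L2).length) :
    ∃ R : List V, R.length = t ∧ (∀ x ∈ R, x ∈ L1 ++ y :: L2) ∧ Route G a b R := by
  refine window _ hc hn a b L1.length L1.length t ?_ ?_ (by simp) (by omega) ht0 htW
  · intro k h hk
    by_cases hk' : k < L1.length
    · exact hX _ (getElem_mem_left h hk')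
    · have : k = L1.length := by omega
      subst this
      simpa using hya
  · intro k h hk
    by_cases hk' : k = L1.length
    · subst hk'
      simpa using hyb
    · have h1 : (L1 ++ y :: L2)[k] ∈ y :: L2 := getElem_mem_right h hk
      have h2 : (L1 ++ y :: L2)[k] = (y :: L2)[k - L1.length]'(by simp at h ⊢; omega) :=
        List.getElem_append_right hk
      rw [h2]
      obtain ⟨m, hm⟩ : ∃ m, k - L1.length = m + 1 := ⟨k - L1.length - 1, by omega⟩
      simp only [hm, List.getElem_cons_succ]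
      exact hY _ (List.getElem_mem _)

/-- A window through an edge. -/
lemma window_edge (L1 L2 : List V) (hc : (L1 ++ L2).IsChain G.Adj)
    (hn : (L1 ++ L2).Nodup) (a b : V) (h1 : L1 ≠ []) (h2 : L2 ≠ [])
    (hX : ∀ x ∈ L1, G.Adj a x) (hY : ∀ x ∈ L2, G.Adj x b)
    (t : ℕ) (ht0 : 2 ≤ t) (htW : t ≤ (L1 ++ L2).length) :
    ∃ R : List V, R.length = t ∧ (∀ x ∈ R, x ∈ L1 ++ L2) ∧ Route G a b R := by
  have hL1 : 0 < L1.length := List.length_pos_iff.2 h1
  have hL2 : 0 < L2.length := List.length_pos_iff.2 h2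
  refine window _ hc hn a b (L1.length - 1) L1.length t ?_ ?_ (by simp; omega) (by omega) (by omega)
    htW
  · intro k h hk
    exact hX _ (getElem_mem_left h (by omega))
  · intro k h hk
    exact hY _ (getElem_mem_right h hk)

variable {n : ℕ} {f : ℕ → V}

/-- Surgery: a route with `j + 1` outside vertices closes up to a cycle of length `n + 2`. -/
lemma surgery (hcyc : PerCycle G n f) (i j : ℕ) (hj1 : 1 ≤ j) (hjn : j + 1 ≤ n) {R : List V}
    (hR : Route G (f i) (f (i + j)) R) (hlen : R.length = j + 1) (hout : ∀ x ∈ R, ∀ s, x ≠ f s) :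
    HasC G (n + 2) := by
  set T : List V := (List.range (n - j + 1)).map (fun s => f (i + j + s)) with hT
  have hTlen : T.length = n - j + 1 := by simp [hT]
  have hTget : ∀ k (hk : k < T.length), T[k] = f (i + j + k) := by
    intro k hk
    simp [hT]
  have hTne : T ≠ [] := by
    intro h
    rw [h] at hTlen
    simp at hTlen
  have hRne := hR.ne
  have hTnd : T.Nodup := by
    refine List.Nodup.map_on ?_ List.nodup_range
    intro x hx y hy he
    rw [List.mem_range] at hx hy
    by_contra hne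
    rcases lt_or_gt_of_ne hne with h | h
    · exact hcyc.inj (i + j + x) (i + j + y) (by omega) (by omega) he
    · exact hcyc.inj (i + j + y) (i + j + x) (by omega) (by omega) he.symm
  have hTch : T.IsChain G.Adj := by
    rw [List.isChain_iff_getElem]
    intro k hk
    rw [hTget, hTget]
    exact hcyc.adj _
  have hTlast : T.getLast hTne = f i := by
    rw [List.getLast_eq_getElem, hTget]
    have h1 : i + j + (T.length - 1) = i + n := by omega
    rw [h1, Nat.add_comm i n, Nat.add_comm n i, hcyc.per]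
  have hThead : T.head hTne = f (i + j) := by
    rw [List.head_eq_getElem, hTget]
    rfl
  have hL := hasC_of_list (G := G) (T ++ R) ?_ ?_ (by simp [hTne]) ?_
  · have h2 : (T ++ R).length = n + 2 := by
      rw [List.length_append, hTlen, hlen]
      omega
    rwa [h2] at hL
  · rw [List.nodup_append]
    refine ⟨hTnd, hR.nodup, ?_⟩
    intro x hx y hy he
    rw [List.mem_map] at hx
    obtain ⟨s, _, rfl⟩ := hx
    exact hout y hy _ he.symm
  · rw [List.isChain_append]
    refine ⟨hTch, hR.chain, ?_⟩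
    intro x hx y hy
    rw [List.getLast?_eq_some_getLast hTne] at hx
    rw [List.head?_eq_some_head hRne] at hy
    simp only [Option.mem_def, Option.some.injEq] at hx hy
    rw [← hx, ← hy, hTlast]
    exact hR.left
  · rw [List.getLast_append_of_ne_nil _ hRne, List.head_append_of_ne_nil hTne, hThead]
    exact hR.right

/-- A cone over a path is a cycle. -/
lemma cone {x : V} {P : List V} (hne : P ≠ []) (hnd : P.Nodup) (hch : P.IsChain G.Adj)
    (hnbr : ∀ y ∈ P, G.Adj x y) : HasC G (P.length + 1) := by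
  have hx : x ∉ P := fun h => (hnbr x h).ne rfl
  have hL := hasC_of_list (G := G) (x :: P) (List.nodup_cons.2 ⟨hx, hnd⟩) ?_ (by simp) ?_
  · simpa using hL
  · rw [List.isChain_cons]
    refine ⟨?_, hch⟩
    intro y hy
    apply hnbr
    exact List.mem_of_mem_head? hy
  · rw [List.getLast_cons hne, List.head_cons]
    exact (hnbr _ (List.getLast_mem hne)).symm

variable {r : V → ℕ}

lemma nodup_of_dec {P : List V} (h : P.Pairwise (fun x y => r y < r x)) : P.Nodup :=
  h.imp (fun {x y} hxy he => by subst he; exact lt_irrefl _ hxy)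

/-- Routes between two monotone paths that share a vertex. -/
lemma route_overlap {P Q : List V} (hPd : P.Pairwise (fun x y => r y < r x))
    (hQd : Q.Pairwise (fun x y => r y < r x)) (hPc : P.IsChain G.Adj) (hQc : Q.IsChain G.Adj)
    {a b : V} (hPn : ∀ x ∈ P, G.Adj a x) (hQn : ∀ x ∈ Q, G.Adj b x) {y : V} (hyP : y ∈ P)
    (hyQ : y ∈ Q) (t : ℕ) (ht0 : 1 ≤ t) (ht : 2 * t ≤ P.length + Q.length + 1) :
    ∃ R : List V, R.length = t ∧ (∀ x ∈ R, x ∈ P ∨ x ∈ Q) ∧ Route G a b R := by
  obtain ⟨P1, P2, rfl⟩ := List.append_of_mem hyP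
  obtain ⟨Q1, Q2, rfl⟩ := List.append_of_mem hyQ
  have hP' := List.pairwise_append.1 hPd
  have hQ' := List.pairwise_append.1 hQd
  have hP2 := List.pairwise_cons.1 hP'.2.1
  have hQ2 := List.pairwise_cons.1 hQ'.2.1
  have hPc' := List.isChain_split.1 hPc
  have hQc' := List.isChain_split.1 hQc
  simp only [List.length_append, List.length_cons] at ht
  by_cases hcase : t ≤ P1.length + Q2.length + 1
  · -- use `P1 ++ y :: Q2`
    have hW : (P1 ++ y :: Q2).Pairwise (fun x y => r y < r x) := by
      refine List.pairwise_append.2 ⟨hP'.1, List.pairwise_cons.2 ⟨hQ2.1, hQ2.2⟩, ?_⟩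
      intro u hu v hv
      rcases List.mem_cons.1 hv with rfl | hv
      · exact hP'.2.2 u hu v (by simp)
      · exact lt_trans (hQ2.1 v hv) (hP'.2.2 u hu y (by simp))
    obtain ⟨R, h1, h2, h3⟩ := window_mid P1 Q2 y (List.isChain_split.2 ⟨hPc'.1, hQc'.2⟩)
      (nodup_of_dec hW) a b (fun x hx => hPn x (by simp [hx])) (hPn y (by simp))
      (hQn y (by simp)).symm (fun x hx => (hQn x (by simp [hx])).symm) t ht0 (by simp; omega)
    refine ⟨R, h1, ?_, h3⟩
    intro x hx
    have := h2 x hx
    simp only [List.mem_append, List.mem_cons] at this ⊢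
    tauto
  · -- use `Q1 ++ y :: P2`
    have hW : (Q1 ++ y :: P2).Pairwise (fun x y => r y < r x) := by
      refine List.pairwise_append.2 ⟨hQ'.1, List.pairwise_cons.2 ⟨hP2.1, hP2.2⟩, ?_⟩
      intro u hu v hv
      rcases List.mem_cons.1 hv with rfl | hv
      · exact hQ'.2.2 u hu v (by simp)
      · exact lt_trans (hP2.1 v hv) (hQ'.2.2 u hu y (by simp))
    obtain ⟨R, h1, h2, h3⟩ := window_mid Q1 P2 y (List.isChain_split.2 ⟨hQc'.1, hPc'.2⟩)
      (nodup_of_dec hW) b a (fun x hx => hQn x (by simp [hx])) (hQn y (by simp))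
      (hPn y (by simp)).symm (fun x hx => (hPn x (by simp [hx])).symm) t ht0 (by simp; omega)
    refine ⟨R.reverse, by simpa using h1, ?_, h3.symm⟩
    intro x hx
    have := h2 x (List.mem_reverse.1 hx)
    simp only [List.mem_append, List.mem_cons] at this ⊢
    tauto

/-- The longer half of a path, ending at a prescribed vertex. -/
lemma half {P : List V} (hnd : P.Nodup) (hc : P.IsChain G.Adj) {z : V} (hz : z ∈ P) :
    ∃ L : List V, (L ++ [z]).IsChain G.Adj ∧ (L ++ [z]).Nodup ∧ (∀ x ∈ L ++ [z], x ∈ P) ∧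
      P.length + 1 ≤ 2 * (L ++ [z]).length := by
  obtain ⟨P1, P2, rfl⟩ := List.append_of_mem hz
  have hc' := List.isChain_split.1 hc
  by_cases hcase : P2.length ≤ P1.length
  · refine ⟨P1, hc'.1, ?_, ?_, ?_⟩
    · rw [List.nodup_append] at hnd ⊢
      refine ⟨hnd.1, by simp, ?_⟩
      intro u hu v hv
      have := hnd.2.2 u hu v (by simp at hv; simp [hv])
      exact this
    · intro x hx
      simp only [List.mem_append, List.mem_singleton, List.mem_cons] at hx ⊢
      tauto
    · simp; omega
  · refine ⟨P2.reverse, ?_, ?_, ?_, ?_⟩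
    · have : P2.reverse ++ [z] = (z :: P2).reverse := by simp
      rw [this, List.isChain_reverse]
      exact hc'.2.imp (fun _ _ h => h.symm)
    · have : P2.reverse ++ [z] = (z :: P2).reverse := by simp
      rw [this, List.nodup_reverse]
      exact (List.nodup_append.1 hnd).2.1
    · intro x hx
      simp only [List.mem_append, List.mem_singleton, List.mem_cons, List.mem_reverse] at hx ⊢
      tauto
    · simp; omega

/-- Routes across an edge between the chosen vertices of two disjoint paths. -/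
lemma route_edge {P Q : List V} (hPnd : P.Nodup) (hQnd : Q.Nodup) (hPc : P.IsChain G.Adj)
    (hQc : Q.IsChain G.Adj) (hdisj : P.Disjoint Q)
    {a b : V} (hPn : ∀ x ∈ P, G.Adj a x) (hQn : ∀ x ∈ Q, G.Adj b x) {z z' : V} (hz : z ∈ P)
    (hz' : z' ∈ Q) (hzz : G.Adj z z') (t : ℕ) (ht0 : 2 ≤ t)
    (ht : 2 * t ≤ P.length + Q.length + 1) :
    ∃ R : List V, R.length = t ∧ (∀ x ∈ R, x ∈ P ∨ x ∈ Q) ∧ Route G a b R := by
  obtain ⟨L1, h1c, h1n, h1s, h1l⟩ := half hPnd hPc hz
  obtain ⟨L2, h2c, h2n, h2s, h2l⟩ := half hQnd hQc hz'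
  have hrev : (z' :: L2.reverse) = (L2 ++ [z']).reverse := by simp
  have hW1 : ((L1 ++ [z]) ++ (z' :: L2.reverse)).IsChain G.Adj := by
    rw [List.append_assoc, List.singleton_append, List.isChain_append_cons_cons]
    refine ⟨h1c, hzz, ?_⟩
    rw [hrev, List.isChain_reverse]
    exact h2c.imp (fun _ _ h => h.symm)
  have hmem2 : ∀ x ∈ z' :: L2.reverse, x ∈ Q := by
    intro x hx
    apply h2s
    simp only [List.mem_cons, List.mem_reverse] at hx
    simp only [List.mem_append, List.mem_singleton]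
    tauto
  have hW2 : ((L1 ++ [z]) ++ (z' :: L2.reverse)).Nodup := by
    rw [List.nodup_append]
    refine ⟨h1n, ?_, ?_⟩
    · rw [hrev, List.nodup_reverse]
      exact h2n
    · intro u hu v hv he
      subst he
      exact hdisj (h1s u hu) (hmem2 u hv)
  obtain ⟨R, h1, h2, h3⟩ := window_edge _ _ hW1 hW2 a b (by simp) (by simp)
    (fun x hx => hPn x (h1s x hx)) (fun x hx => (hQn x (hmem2 x hx)).symm) t ht0 (by
      have e2 : (L2 ++ [z']).length = (z' :: L2.reverse).length := by simp
      rw [List.length_append]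
      rw [e2] at h2l
      omega)
  refine ⟨R, h1, ?_, h3⟩
  intro x hx
  have := h2 x hx
  rw [List.mem_append] at this
  rcases this with h | h
  · exact Or.inl (h1s x h)
  · exact Or.inr (hmem2 x h)

/-- Two paths hanging from `f i` and `f (i + j)` with enough vertices can neither meet nor be joined
at their chosen vertices. -/
lemma no_link (hcyc : PerCycle G n f) (hno : ¬ HasC G (n + 2)) {i j : ℕ} (hj1 : 1 ≤ j)
    (hjn : j + 1 ≤ n) {P Q : List V} (hPd : P.Pairwise (fun x y => r y < r x))
    (hQd : Q.Pairwise (fun x y => r y < r x)) (hPc : P.IsChain G.Adj) (hQc : Q.IsChain G.Adj)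
    (hPn : ∀ x ∈ P, G.Adj (f i) x) (hQn : ∀ x ∈ Q, G.Adj (f (i + j)) x)
    (hPo : ∀ x ∈ P, ∀ s, x ≠ f s) (hQo : ∀ x ∈ Q, ∀ s, x ≠ f s)
    (hsize : 2 * j + 1 ≤ P.length + Q.length) {z z' : V} (hz : z ∈ P) (hz' : z' ∈ Q) :
    P.Disjoint Q ∧ ¬ G.Adj z z' := by
  have hdisj : P.Disjoint Q := by
    intro y hyP hyQ
    obtain ⟨R, h1, h2, h3⟩ := route_overlap hPd hQd hPc hQc hPn hQn hyP hyQ (j + 1) (by omega)
      (by omega)
    refine hno (surgery hcyc i j hj1 hjn h3 h1 ?_)
    intro x hx s
    rcases h2 x hx with h | h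
    · exact hPo x h s
    · exact hQo x h s
  refine ⟨hdisj, ?_⟩
  intro hzz
  obtain ⟨R, h1, h2, h3⟩ := route_edge (nodup_of_dec hPd) (nodup_of_dec hQd) hPc hQc hdisj hPn hQn
    hz hz' hzz (j + 1) (by omega) (by omega)
  refine hno (surgery hcyc i j hj1 hjn h3 h1 ?_)
  intro x hx s
  rcases h2 x hx with h | h
  · exact hPo x h s
  · exact hQo x h s

/-- The cells occupied by a path with `p` vertices hanging from column `i`. -/
def cells (n i p : ℕ) : Finset ℕ :=
  (Finset.range (2 * p)).image (fun t => (2 * i + 2 * n - p + t) % (2 * n))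

lemma card_cells {n i p : ℕ} (hp : p ≤ n) : (cells n i p).card = 2 * p := by
  unfold cells
  rw [Finset.card_image_of_injOn, Finset.card_range]
  intro x hx y hy he
  simp only [Finset.coe_range, Set.mem_Iio] at hx hy
  have h1 : (2 * i + 2 * n - p) + x ≡ (2 * i + 2 * n - p) + y [MOD 2 * n] := he
  have h2 := Nat.ModEq.add_left_cancel' _ h1
  exact Nat.ModEq.eq_of_lt_of_lt h2 (by omega) (by omega)

lemma cells_sub {n i p : ℕ} (hn : 0 < n) : cells n i p ⊆ Finset.range (2 * n) := by
  intro e he
  unfold cells at he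
  obtain ⟨t, _, rfl⟩ := Finset.mem_image.1 he
  exact Finset.mem_range.2 (Nat.mod_lt _ (by omega))

lemma cells_inter {n i i' p q e : ℕ} (hp : p ≤ n) (hq : q ≤ n) (hi : i < n) (hi' : i' < n)
    (hne : i ≠ i') (h1 : e ∈ cells n i p) (h2 : e ∈ cells n i' q) :
    ∃ j, 1 ≤ j ∧ 2 * j + 1 ≤ p + q ∧ (i + j = i' ∨ i + j = i' + n ∨ i' + j = i ∨ i' + j = i + n) := by
  unfold cells at h1 h2
  obtain ⟨t, ht, rfl⟩ := Finset.mem_image.1 h1
  obtain ⟨t', ht', he⟩ := Finset.mem_image.1 h2
  rw [Finset.mem_range] at ht ht'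
  have h3 : (2 * i' + 2 * n - q) + t' ≡ (2 * i + 2 * n - p) + t [MOD 2 * n] := he
  have h4 := (Nat.modEq_iff_dvd).1 h3
  obtain ⟨k, hk⟩ := h4
  push_cast at hk
  have e1 : ((2 * i + 2 * n - p : ℕ) : ℤ) = 2 * i + 2 * n - p := by omega
  have e2 : ((2 * i' + 2 * n - q : ℕ) : ℤ) = 2 * i' + 2 * n - q := by omega
  rw [e1, e2] at hk
  have hnZ : (0 : ℤ) < n := by omega
  have hk1 : k < 2 := by
    by_contra hc
    have : (2 : ℤ) ≤ k := by omega
    have h5 : 2 * (n : ℤ) * 2 ≤ 2 * n * k := by nlinarith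
    omega
  have hk2 : -2 < k := by
    by_contra hc
    have : k ≤ (-2 : ℤ) := by omega
    have h5 : 2 * (n : ℤ) * k ≤ 2 * n * (-2) := by nlinarith
    omega
  have hk3 : k = -1 ∨ k = 0 ∨ k = 1 := by omega
  have hcase : (t' + p ≤ t + q) ∨ (t + q < t' + p) := by omega
  rcases hcase with hc | hc
  · refine ⟨(t + q - (t' + p)) / 2, ?_, ?_, ?_⟩ <;> rcases hk3 with rfl | rfl | rfl <;> omega
  · refine ⟨(t' + p - (t + q)) / 2, ?_, ?_, ?_⟩ <;> rcases hk3 with rfl | rfl | rfl <;> omega

lemma cover_card [Fintype V] {U : Finset V} {Ps : Finset (List V)} (h : Cover G r U Ps) :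
    ∑ P ∈ Ps, P.length = U.card := by
  have h1 : U = Ps.biUnion (fun P => P.toFinset) := by
    ext x
    rw [h.mem x, Finset.mem_biUnion]
    simp
  rw [h1, Finset.card_biUnion]
  · refine Finset.sum_congr rfl ?_
    intro P hP
    rw [List.toFinset_card_of_nodup (nodup_of_dec (h.dec P hP))]
  · intro P hP Q hQ hne
    change Disjoint P.toFinset Q.toFinset
    rw [Finset.disjoint_left]
    intro x hx hy
    rw [List.mem_toFinset] at hx hy
    exact (h.disj P (Finset.mem_coe.1 hP) Q (Finset.mem_coe.1 hQ) hne) hx hy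

/-- The key lemma. -/
theorem key_lemma [Fintype V] [Inhabited V] (hcyc : PerCycle G n f) (hn : 0 < n)
    (hno : ¬ HasC G (n + 2))
    (a : ℕ) (hα : ∀ s : Finset V, G.IsIndepSet (s : Set V) → s.card ≤ a) :
    ∑ i ∈ Finset.range n, (Finset.univ.filter (fun x => G.Adj (f i) x ∧ ∀ s, x ≠ f s)).card
      ≤ a * n := by
  set A : ℕ → Finset V := fun i => Finset.univ.filter (fun x => G.Adj (f i) x ∧ ∀ s, x ≠ f s)
    with hA
  obtain ⟨r, hr⟩ : ∃ r : V → ℕ, Function.Injective r :=
    ⟨fun v => (Fintype.equivFin V v).val,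
      fun x y h => (Fintype.equivFin V).injective (Fin.ext h)⟩
  have hgm := fun i => gm G r hr (A i)
  choose Ps c hcov hc1 hc2 using hgm
  have hmemA : ∀ i, ∀ P ∈ Ps i, ∀ x ∈ P, G.Adj (f i) x ∧ ∀ s, x ≠ f s := by
    intro i P hP x hx
    have : x ∈ A i := ((hcov i).mem x).2 ⟨P, hP, hx⟩
    simpa [hA] using this
  -- paths are not too long
  have hsize : ∀ i, ∀ P ∈ Ps i, P.length ≤ n := by
    intro i P hP
    by_contra hc
    have hlen : (P.take (n + 1)).length = n + 1 := by
      rw [List.length_take]; omega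
    have hne : P.take (n + 1) ≠ [] := by
      intro h
      rw [h] at hlen
      simp at hlen
    have := cone (x := f i) (G := G) hne
      ((nodup_of_dec ((hcov i).dec P hP)).sublist (List.take_sublist _ _))
      (((hcov i).chain P hP).take _)
      (fun y hy => (hmemA i P hP y (List.mem_of_mem_take hy)).1)
    rw [hlen] at this
    exact hno this
  set S : Finset (Σ _ : ℕ, List V) := (Finset.range n).sigma Ps with hS
  have hsep : ∀ x ∈ S, ∀ y ∈ S, ∀ e, e ∈ cells n x.1 x.2.length → e ∈ cells n y.1 y.2.length →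
      x ≠ y → c x.1 x.2 ≠ c y.1 y.2 ∧ ¬ G.Adj (c x.1 x.2) (c y.1 y.2) := by
    rintro ⟨i, P⟩ hx ⟨i', Q⟩ hy e he1 he2 hne
    simp only [hS, Finset.mem_sigma, Finset.mem_range] at hx hy
    dsimp only at he1 he2 ⊢
    by_cases hii : i = i'
    · subst hii
      have hPQ : P ≠ Q := fun h => hne (by rw [h])
      refine ⟨?_, hc2 i P hx.2 Q hy.2 hPQ⟩
      intro he
      have h1 := hc1 i P hx.2
      have h2 := hc1 i Q hy.2
      rw [← he] at h2
      exact ((hcov i).disj P hx.2 Q hy.2 hPQ) h1 h2
    · obtain ⟨j, hj1, hj2, hj3⟩ := cells_inter (hsize i P hx.2) (hsize i' Q hy.2) hx.1 hy.1 hii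
        he1 he2
      have hsP := hsize i P hx.2
      have hsQ := hsize i' Q hy.2
      have hjn : j + 1 ≤ n := by omega
      have hP1 := hc1 i P hx.2
      have hQ1 := hc1 i' Q hy.2
      have hforward : f (i + j) = f i' → c i P ≠ c i' Q ∧ ¬ G.Adj (c i P) (c i' Q) := by
        intro hfe
        have := no_link (r := r) hcyc hno hj1 hjn ((hcov i).dec P hx.2) ((hcov i').dec Q hy.2)
          ((hcov i).chain P hx.2) ((hcov i').chain Q hy.2)
          (fun u hu => (hmemA i P hx.2 u hu).1)
          (fun u hu => by rw [hfe]; exact (hmemA i' Q hy.2 u hu).1)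
          (fun u hu => (hmemA i P hx.2 u hu).2) (fun u hu => (hmemA i' Q hy.2 u hu).2)
          hj2 hP1 hQ1
        refine ⟨?_, this.2⟩
        intro he
        exact this.1 hP1 (he ▸ hQ1)
      have hbackward : f (i' + j) = f i → c i P ≠ c i' Q ∧ ¬ G.Adj (c i P) (c i' Q) := by
        intro hfe
        have := no_link (r := r) hcyc hno hj1 hjn ((hcov i').dec Q hy.2) ((hcov i).dec P hx.2)
          ((hcov i').chain Q hy.2) ((hcov i).chain P hx.2)
          (fun u hu => (hmemA i' Q hy.2 u hu).1)
          (fun u hu => by rw [hfe]; exact (hmemA i P hx.2 u hu).1)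
          (fun u hu => (hmemA i' Q hy.2 u hu).2) (fun u hu => (hmemA i P hx.2 u hu).2)
          (by omega) hQ1 hP1
        refine ⟨?_, fun h => this.2 h.symm⟩
        intro he
        exact this.1 hQ1 (he ▸ hP1)
      rcases hj3 with h | h | h | h
      · exact hforward (by rw [h])
      · exact hforward (by rw [h, hcyc.per])
      · exact hbackward (by rw [h])
      · exact hbackward (by rw [h, hcyc.per])
  -- each cell holds at most `a` paths
  have hcell : ∀ e ∈ Finset.range (2 * n),
      (S.filter (fun x => e ∈ cells n x.1 x.2.length)).card ≤ a := by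
    intro e _
    set T := S.filter (fun x => e ∈ cells n x.1 x.2.length) with hT
    have hinj : Set.InjOn (fun x : (Σ _ : ℕ, List V) => c x.1 x.2) (T : Set (Σ _ : ℕ, List V)) := by
      intro x hx y hy he
      by_contra hne
      have hx' := Finset.mem_filter.1 (Finset.mem_coe.1 hx)
      have hy' := Finset.mem_filter.1 (Finset.mem_coe.1 hy)
      exact (hsep x hx'.1 y hy'.1 e hx'.2 hy'.2 hne).1 he
    rw [← Finset.card_image_of_injOn hinj]
    apply hα
    intro u hu v hv huv
    simp only [Finset.coe_image, Set.mem_image, Finset.mem_coe] at hu hv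
    obtain ⟨x, hx, rfl⟩ := hu
    obtain ⟨y, hy, rfl⟩ := hv
    have hx' := Finset.mem_filter.1 hx
    have hy' := Finset.mem_filter.1 hy
    have hne : x ≠ y := fun h => huv (by rw [h])
    exact (hsep x hx'.1 y hy'.1 e hx'.2 hy'.2 hne).2
  -- double counting
  have hdc := Finset.sum_card_bipartiteAbove_eq_sum_card_bipartiteBelow (s := S)
    (t := Finset.range (2 * n)) (fun (x : Σ _ : ℕ, List V) e => e ∈ cells n x.1 x.2.length)
  have hleft : ∑ x ∈ S, (Finset.bipartiteAbove (fun (x : Σ _ : ℕ, List V) e =>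
      e ∈ cells n x.1 x.2.length) (Finset.range (2 * n)) x).card
      = ∑ x ∈ S, 2 * x.2.length := by
    refine Finset.sum_congr rfl ?_
    rintro ⟨i, P⟩ hx
    simp only [hS, Finset.mem_sigma, Finset.mem_range] at hx
    have h1 : Finset.bipartiteAbove (fun (x : Σ _ : ℕ, List V) e =>
        e ∈ cells n x.1 x.2.length) (Finset.range (2 * n)) ⟨i, P⟩ = cells n i P.length := by
      unfold Finset.bipartiteAbove
      rw [Finset.filter_mem_eq_inter, Finset.inter_eq_right.2 (cells_sub hn)]
    rw [h1, card_cells (hsize i P hx.2)]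
  have hright : ∑ e ∈ Finset.range (2 * n), (Finset.bipartiteBelow (fun (x : Σ _ : ℕ, List V) e =>
      e ∈ cells n x.1 x.2.length) S e).card ≤ ∑ _e ∈ Finset.range (2 * n), a :=
    Finset.sum_le_sum hcell
  rw [← hdc, hleft, Finset.sum_const, Finset.card_range, smul_eq_mul] at hright
  have hsum : ∑ x ∈ S, 2 * x.2.length = 2 * ∑ i ∈ Finset.range n, (A i).card := by
    rw [hS, Finset.sum_sigma, Finset.mul_sum]
    refine Finset.sum_congr rfl ?_
    intro i _
    rw [← cover_card (hcov i), Finset.mul_sum]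
  rw [hsum] at hright
  nlinarith

end

end Vale.Agent.Lib.P048
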