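import Vale.Agent.Lib.P048.Key

/-!
Consequences of the key lemma: the cycle spectrum of graphs with large minimum degree and bounded
independence number, and an upper bound for `R(C_m, K_n)` valid for `m ≥ n + 2`.
-/

open Finset

open scoped Classical

namespace Vale.Agent.Lib.P048

noncomputable section

variable {V : Type} {G : SimpleGraph V}

lemma PerCycle.mod_eq {m : ℕ} {f : ℕ → V} (h : PerCycle G m f) (hm : 0 < m) (s : ℕ) :
    f (s % m) = f s := by
  induction s using Nat.strong_induction_on with
  | _ s ih =>
    by_cases hs : s < m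
    · rw [Nat.mod_eq_of_lt hs]
    · have h1 : s % m = (s - m) % m := Nat.mod_eq_sub_mod (by omega)
      rw [h1, ih (s - m) (by omega)]
      have h2 := h.per (s - m)
      rw [Nat.sub_add_cancel (by omega)] at h2
      exact h2.symm

lemma hasC_to_copy {m : ℕ} (hm : 3 ≤ m) (h : HasC G m) : (SimpleGraph.cycleGraph m).IsContained G := by
  obtain ⟨f, hf⟩ := h
  have hstep : ∀ u v : Fin m, (u - v).val = 1 → G.Adj (f v.val) (f u.val) := by
    intro u v huv
    by_cases hle : v ≤ u
    · have h1 := (Fin.coe_sub_iff_le).2 hle
      rw [huv] at h1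
      have h2 : u.val = v.val + 1 := by
        have := Fin.le_def.1 hle
        omega
      rw [h2]
      exact hf.adj _
    · have hlt : u < v := not_le.1 hle
      have h1 := (Fin.coe_sub_iff_lt).2 hlt
      rw [huv] at h1
      have hv := v.isLt
      have hu0 : u.val = 0 := by omega
      have hv1 : v.val + 1 = m := by omega
      rw [hu0]
      have h3 := hf.adj v.val
      rw [hv1] at h3
      have h4 := hf.per 0
      rw [Nat.zero_add] at h4
      rwa [h4] at h3
  refine ⟨⟨⟨fun u => f u.val, ?_⟩, ?_⟩⟩
  · intro u v huv
    rcases SimpleGraph.cycleGraph_adj'.1 huv with h | h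
    · exact (hstep u v h).symm
    · exact hstep v u h
  · intro u v he
    by_contra hne
    have hne' : u.val ≠ v.val := fun h => hne (Fin.ext h)
    have hu := u.isLt
    have hv := v.isLt
    rcases lt_or_gt_of_ne hne' with h | h
    · exact hf.inj _ _ h (by omega) he
    · exact hf.inj _ _ h (by omega) he.symm

/-- Every vertex of a graph with large minimum degree and small independence number is the apex of
triangles and of `4`-cycles. -/
lemma base_cycles [Fintype V] [Inhabited V] (k a : ℕ)
    (hδ : ∀ v, k ≤ (Finset.univ.filter (fun y => G.Adj v y)).card)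
    (hα : ∀ s : Finset V, G.IsIndepSet (s : Set V) → s.card ≤ a) (hka : 2 * a + 1 ≤ k) :
    HasC G 3 ∧ HasC G 4 := by
  obtain ⟨r, hr⟩ : ∃ r : V → ℕ, Function.Injective r :=
    ⟨fun v => (Fintype.equivFin V v).val,
      fun x y h => (Fintype.equivFin V).injective (Fin.ext h)⟩
  set v : V := default
  set U := Finset.univ.filter (fun y => G.Adj v y) with hU
  obtain ⟨Ps, c, hcov, hc1, hc2⟩ := gm G r hr U
  have hcard : Ps.card ≤ a := by
    have hinj : Set.InjOn c (Ps : Set (List V)) := by
      intro P hP Q hQ he
      by_contra hne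
      have h1 := hc1 P hP
      have h2 := hc1 Q hQ
      rw [he] at h1
      exact (hcov.disj P hP Q hQ hne) h1 h2
    rw [← Finset.card_image_of_injOn hinj]
    apply hα
    intro u hu w hw huw
    simp only [Finset.coe_image, Set.mem_image, Finset.mem_coe] at hu hw
    obtain ⟨P, hP, rfl⟩ := hu
    obtain ⟨Q, hQ, rfl⟩ := hw
    exact hc2 P hP Q hQ (fun h => huw (by rw [h]))
  have hsum := cover_card hcov
  have hex : ∃ P ∈ Ps, 3 ≤ P.length := by
    by_contra hc
    push Not at hc
    have h1 : ∑ P ∈ Ps, P.length ≤ ∑ _P ∈ Ps, 2 :=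
      Finset.sum_le_sum (fun P hP => by have := hc P hP; omega)
    rw [Finset.sum_const, smul_eq_mul] at h1
    have := hδ v
    rw [← hU] at this
    omega
  obtain ⟨P, hP, hlen⟩ := hex
  have hnd := nodup_of_dec (hcov.dec P hP)
  have hch := hcov.chain P hP
  have hnbr : ∀ y ∈ P, G.Adj v y := by
    intro y hy
    have := (hcov.mem y).2 ⟨P, hP, hy⟩
    simpa [hU] using this
  have hcone : ∀ t, 1 ≤ t → t ≤ P.length → HasC G (t + 1) := by
    intro t ht1 ht2
    have hl : (P.take t).length = t := by rw [List.length_take]; omega
    have hne : P.take t ≠ [] := by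
      intro h
      rw [h] at hl
      simp at hl
      omega
    have := cone (x := v) (G := G) hne (hnd.sublist (List.take_sublist _ _)) (hch.take _)
      (fun y hy => hnbr y (List.mem_of_mem_take hy))
    rwa [hl] at this
  exact ⟨hcone 2 (by omega) (by omega), hcone 3 (by omega) hlen⟩

/-- Step: a cycle of length `n` with `n + a ≤ k` produces one of length `n + 2`. -/
lemma step_two [Fintype V] [Inhabited V] (k a n : ℕ)
    (hδ : ∀ v, k ≤ (Finset.univ.filter (fun y => G.Adj v y)).card)
    (hα : ∀ s : Finset V, G.IsIndepSet (s : Set V) → s.card ≤ a) (hn : 0 < n) (hna : n + a ≤ k)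
    (hC : HasC G n) : HasC G (n + 2) := by
  by_contra hno
  obtain ⟨f, hf⟩ := hC
  have hkey := key_lemma hf hn hno a hα
  -- every vertex of the cycle has many neighbours off the cycle
  have hlow : ∀ i ∈ Finset.range n, a + 1 ≤
      (Finset.univ.filter (fun x => G.Adj (f i) x ∧ ∀ s, x ≠ f s)).card := by
    intro i _
    have h1 := hδ (f i)
    have h2 : Finset.univ.filter (fun y => G.Adj (f i) y) ⊆
        Finset.univ.filter (fun x => G.Adj (f i) x ∧ ∀ s, x ≠ f s) ∪
          ((Finset.range n).image f).erase (f i) := by
      intro y hy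
      have hy1 := (Finset.mem_filter.1 hy).2
      by_cases hy2 : ∀ s, y ≠ f s
      · exact Finset.mem_union_left _ (Finset.mem_filter.2 ⟨Finset.mem_univ _, hy1, hy2⟩)
      · push Not at hy2
        obtain ⟨s, hs⟩ := hy2
        refine Finset.mem_union_right _ (Finset.mem_erase.2 ⟨hy1.ne', ?_⟩)
        refine Finset.mem_image.2 ⟨s % n, Finset.mem_range.2 (Nat.mod_lt _ hn), ?_⟩
        rw [hf.mod_eq hn, hs]
    have h3 := (Finset.card_le_card h2).trans (Finset.card_union_le _ _)
    have h4 : (((Finset.range n).image f).erase (f i)).card + 1 ≤ n := by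
      have hmem : f i ∈ (Finset.range n).image f :=
        Finset.mem_image.2 ⟨i % n, Finset.mem_range.2 (Nat.mod_lt _ hn), hf.mod_eq hn i⟩
      rw [Finset.card_erase_add_one hmem]
      exact Finset.card_image_le.trans (by simp)
    omega
  have hsum : ∑ _i ∈ Finset.range n, (a + 1) ≤ a * n := (Finset.sum_le_sum hlow).trans hkey
  rw [Finset.sum_const, Finset.card_range, smul_eq_mul] at hsum
  nlinarith

/-- The spectrum theorem. -/
theorem spectrum [Fintype V] [Inhabited V] (k a : ℕ)
    (hδ : ∀ v, k ≤ (Finset.univ.filter (fun y => G.Adj v y)).card)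
    (hα : ∀ s : Finset V, G.IsIndepSet (s : Set V) → s.card ≤ a) (hka : 2 * a + 1 ≤ k) :
    ∀ m, 3 ≤ m → m + a ≤ k + 2 → HasC G m := by
  obtain ⟨h3, h4⟩ := base_cycles k a hδ hα hka
  intro m
  induction m using Nat.strong_induction_on with
  | _ m ih =>
    intro hm hma
    by_cases hm3 : m = 3
    · rw [hm3]; exact h3
    by_cases hm4 : m = 4
    · rw [hm4]; exact h4
    have h1 := ih (m - 2) (by omega) (by omega) (by omega)
    have h2 := step_two k a (m - 2) hδ hα (by omega) (by omega) h1
    rwa [Nat.sub_add_cancel (by omega)] at h2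

lemma HasC.of_comap {W : Type} {g : W → V} {m : ℕ} (hg : Function.Injective g)
    (h : HasC (G.comap g) m) : HasC G m := by
  obtain ⟨f, hf⟩ := h
  refine ⟨fun s => g (f s), fun s => by simp only [hf.per], fun s => hf.adj s, ?_⟩
  intro s s' h1 h2 he
  exact hf.inj s s' h1 h2 (hg he)

/-- The Ramsey bound, in terms of the independence number. -/
theorem ramsey_bound : ∀ (a m : ℕ) (V : Type) [Fintype V] (G : SimpleGraph V), a + 3 ≤ m →
    (m - 1) * a + a.choose 2 + 1 ≤ Fintype.card V →
    (∀ s : Finset V, G.IsIndepSet (s : Set V) → s.card ≤ a) → HasC G m := by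
  intro a
  induction a with
  | zero =>
    intro m V _ G _ hcard hα
    exfalso
    have h1 : 0 < Fintype.card V := by omega
    obtain ⟨v⟩ := Fintype.card_pos_iff.1 h1
    have := hα {v} (by simp [SimpleGraph.IsIndepSet])
    simp at this
  | succ a ih =>
    intro m V _ G hm hcard hα
    have hpos : 0 < Fintype.card V := by omega
    obtain ⟨v0⟩ := Fintype.card_pos_iff.1 hpos
    letI : Inhabited V := ⟨v0⟩
    by_cases hlow : ∃ v, (Finset.univ.filter (fun y => G.Adj v y)).card + 1 ≤ m + a - 1
    · obtain ⟨v, hv⟩ := hlow
      -- delete the closed neighbourhood of `v`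
      let W : Type := {x : V // x ≠ v ∧ ¬ G.Adj v x}
      have hW : Fintype.card W + (Finset.univ.filter (fun y => G.Adj v y)).card + 1
          = Fintype.card V := by
        have h1 : Fintype.card W = (Finset.univ.filter (fun x => x ≠ v ∧ ¬ G.Adj v x)).card :=
          Fintype.card_subtype _
        have h2 : (Finset.univ.filter (fun x => x ≠ v ∧ ¬ G.Adj v x)).card +
            (insert v (Finset.univ.filter (fun y => G.Adj v y))).card = Fintype.card V := by
          rw [← Finset.card_univ, ← Finset.card_union_of_disjoint]
          · congr 1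
            ext x
            simp only [Finset.mem_union, Finset.mem_filter, Finset.mem_univ, true_and,
              Finset.mem_insert]
            tauto
          · rw [Finset.disjoint_left]
            intro x hx hy
            simp only [Finset.mem_filter, Finset.mem_univ, true_and, Finset.mem_insert] at hx hy
            tauto
        rw [Finset.card_insert_of_notMem (by simp)] at h2
        omega
      have hchoose : (a + 1).choose 2 = a + a.choose 2 := by
        rw [Nat.choose_succ_succ' a 1, Nat.choose_one_right]
      obtain ⟨M, rfl⟩ : ∃ M, m = M + 1 := ⟨m - 1, by omega⟩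
      have hWcard : (M + 1 - 1) * a + a.choose 2 + 1 ≤ Fintype.card W := by
        simp only [Nat.add_sub_cancel] at hcard hv ⊢
        rw [hchoose] at hcard
        have : M * (a + 1) = M * a + M := by ring
        omega
      have hα' : ∀ s : Finset W, (G.comap (Subtype.val : W → V)).IsIndepSet (s : Set W) →
          s.card ≤ a := by
        intro s hs
        have h1 := hα (insert v (s.map ⟨Subtype.val, Subtype.val_injective⟩)) ?_
        · rw [Finset.card_insert_of_notMem, Finset.card_map] at h1
          · omega
          · intro hv'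
            obtain ⟨x, _, hx⟩ := Finset.mem_map.1 hv'
            exact x.2.1 hx
        · intro x hx y hy hxy
          simp only [Finset.coe_insert, Set.mem_insert_iff, Finset.coe_map, Set.mem_image,
            Finset.mem_coe, Function.Embedding.coeFn_mk] at hx hy
          rcases hx with rfl | ⟨x', hx', rfl⟩ <;> rcases hy with rfl | ⟨y', hy', rfl⟩
          · exact absurd rfl hxy
          · exact y'.2.2
          · exact fun h => x'.2.2 h.symm
          · exact hs hx' hy' (fun h => hxy (by rw [h]))
      exact (ih (M + 1) W (G.comap Subtype.val) (by omega) hWcard hα').of_comap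
        Subtype.val_injective
    · push Not at hlow
      have hδ : ∀ v, m + a - 1 ≤ (Finset.univ.filter (fun y => G.Adj v y)).card := by
        intro v
        have := hlow v
        omega
      exact spectrum (m + a - 1) (a + 1) hδ hα (by omega) m (by omega) (by omega)

end

end Vale.Agent.Lib.P048
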