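import Vale.Agent.Lib.P048.Ramsey

/-!
The spectrum theorem and the Ramsey bound without any restriction on the parameters.  The cycle
`C_3` and the cycle `C_4` are found directly.
-/

open Finset

open scoped Classical

namespace Vale.Agent.Lib.P048

noncomputable section

variable {V : Type} {G : SimpleGraph V}

/-- A triangle, as soon as some neighbourhood is larger than the independence number. -/
lemma hasC_three [Fintype V] [Inhabited V] (k a : ℕ)
    (hδ : ∀ v, k ≤ (Finset.univ.filter (fun y => G.Adj v y)).card)
    (hα : ∀ s : Finset V, G.IsIndepSet (s : Set V) → s.card ≤ a) (hk : a + 1 ≤ k) :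
    HasC G 3 := by
  set v : V := default
  set N := Finset.univ.filter (fun y => G.Adj v y) with hN
  have hcard : a + 1 ≤ N.card := hk.trans (hδ v)
  have hnot : ¬ G.IsIndepSet (N : Set V) := fun h => by
    have := hα N h
    omega
  simp only [SimpleGraph.IsIndepSet, Set.Pairwise, not_forall, not_not] at hnot
  obtain ⟨y, hy, z, hz, hne, hadj⟩ := hnot
  have hy' : G.Adj v y := (Finset.mem_filter.1 (Finset.mem_coe.1 hy)).2
  have hz' : G.Adj v z := (Finset.mem_filter.1 (Finset.mem_coe.1 hz)).2
  have hL := hasC_of_list (G := G) [v, y, z] (by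
      simp only [List.nodup_cons, List.mem_cons, List.not_mem_nil, or_false, not_or, List.nodup_nil,
        and_true, not_false_eq_true]
      exact ⟨⟨hy'.ne, hz'.ne⟩, hne⟩)
    (by simp [List.isChain_cons_cons, hy', hadj]) (by simp) (by simpa using hz'.symm)
  simpa using hL

/-- A vertex of a maximum independent set in a graph without `C_4` has degree at most `α + 1`, so
minimum degree `a + 2` forces a cycle of length `4`. -/
lemma hasC_four [Fintype V] [Inhabited V] (k a : ℕ)
    (hδ : ∀ v, k ≤ (Finset.univ.filter (fun y => G.Adj v y)).card)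
    (hα : ∀ s : Finset V, G.IsIndepSet (s : Set V) → s.card ≤ a) (hk : a + 2 ≤ k) :
    HasC G 4 := by
  by_contra hno
  -- two vertices have at most one common neighbour
  have hcommon : ∀ x z p q : V, x ≠ z → p ≠ q → G.Adj x p → G.Adj z p → G.Adj x q → G.Adj z q →
      False := by
    intro x z p q hxz hpq hxp hzp hxq hzq
    apply hno
    have hL := hasC_of_list (G := G) [x, p, z, q] (by
        simp only [List.nodup_cons, List.mem_cons, List.not_mem_nil, or_false, not_or,
          List.nodup_nil, and_true, not_false_eq_true]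
        exact ⟨⟨hxp.ne, hxz, hxq.ne⟩, ⟨hzp.ne', hpq⟩, hzq.ne⟩)
      (by simp [List.isChain_cons_cons, hxp, hzp.symm, hzq]) (by simp)
      (by simpa using hxq.symm)
    simpa using hL
  -- a maximum independent set
  obtain ⟨J, hJmem, hJmax⟩ := Finset.exists_max_image
    ((Finset.univ : Finset (Finset V)).filter (fun s : Finset V => G.IsIndepSet (s : Set V)))
    (fun s : Finset V => s.card)
    ⟨({default} : Finset V), by simp [SimpleGraph.IsIndepSet]⟩
  have hJ : G.IsIndepSet (J : Set V) := (Finset.mem_filter.1 hJmem).2
  have hJcard : J.card ≤ a := hα J hJ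
  have hmax : ∀ s : Finset V, G.IsIndepSet (s : Set V) → s.card ≤ J.card := fun s hs =>
    hJmax s (Finset.mem_filter.2 ⟨Finset.mem_univ _, hs⟩)
  have hJne : J.Nonempty := by
    rw [← Finset.card_pos]
    have := hmax {default} (by simp [SimpleGraph.IsIndepSet])
    simpa using this
  obtain ⟨u, hu⟩ := hJne
  set N := Finset.univ.filter (fun y => G.Adj u y) with hN
  have hNmem : ∀ y, y ∈ N ↔ G.Adj u y := fun y => by simp [hN]
  have hNJ : ∀ y ∈ N, y ∉ J := by
    intro y hy hyJ
    exact hJ (Finset.mem_coe.2 hu) (Finset.mem_coe.2 hyJ) ((hNmem y).1 hy).ne ((hNmem y).1 hy)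
  -- shared and private neighbours
  set Sh := N.filter (fun y => ∃ w ∈ J, w ≠ u ∧ G.Adj y w) with hSh
  set Pr := N.filter (fun y => ¬ ∃ w ∈ J, w ≠ u ∧ G.Adj y w) with hPr
  have hsplit : N.card = Sh.card + Pr.card :=
    (Finset.card_filter_add_card_filter_not _).symm
  -- shared neighbours inject into the other vertices of `J`
  have hSh_card : Sh.card ≤ J.card - 1 := by
    have hchoice : ∀ y ∈ Sh, ∃ w ∈ J, w ≠ u ∧ G.Adj y w := fun y hy => (Finset.mem_filter.1 hy).2
    choose! c hc1 hc2 hc3 using hchoice
    have h1 : Sh.card ≤ (J.erase u).card := by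
      apply Finset.card_le_card_of_injOn c
      · intro y hy
        exact Finset.mem_coe.2 (Finset.mem_erase.2 ⟨hc2 y hy, hc1 y hy⟩)
      · intro y hy y' hy' he
        by_contra hne
        have hyN := ((hNmem y).1 (Finset.mem_filter.1 (Finset.mem_coe.1 hy)).1)
        have hyN' := ((hNmem y').1 (Finset.mem_filter.1 (Finset.mem_coe.1 hy')).1)
        have h2 := hc3 y hy
        have h3 := hc3 y' hy'
        rw [← he] at h3
        exact hcommon u (c y) y y' (hc2 y hy).symm hne hyN h2.symm hyN' h3.symm
    rwa [Finset.card_erase_of_mem hu] at h1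
  -- at most two private neighbours
  have hPr_card : Pr.card ≤ 2 := by
    by_contra hc
    push Not at hc
    obtain ⟨y1, h1, y2, h2, y3, h3, h12, h13, h23⟩ := Finset.two_lt_card.1 hc
    have hpriv : ∀ y ∈ Pr, G.Adj u y ∧ y ∉ J ∧ ∀ w ∈ J, w ≠ u → ¬ G.Adj y w := by
      intro y hy
      have h4 := Finset.mem_filter.1 hy
      refine ⟨(hNmem y).1 h4.1, hNJ y h4.1, ?_⟩
      intro w hw hwu hadj
      exact h4.2 ⟨w, hw, hwu, hadj⟩
    -- private neighbours are pairwise adjacent
    have hadj : ∀ y ∈ Pr, ∀ y' ∈ Pr, y ≠ y' → G.Adj y y' := by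
      intro y hy y' hy' hne
      by_contra hnadj
      obtain ⟨_, hy2, hy3⟩ := hpriv y hy
      obtain ⟨_, hy2', hy3'⟩ := hpriv y' hy'
      have hind : G.IsIndepSet ((insert y (insert y' (J.erase u)) : Finset V) : Set V) := by
        intro p hp q hq hpq
        simp only [Finset.coe_insert, Finset.coe_erase, Set.mem_insert_iff, Set.mem_sdiff,
          Finset.mem_coe, Set.mem_singleton_iff] at hp hq
        rcases hp with rfl | rfl | ⟨hp1, hp2⟩ <;> rcases hq with rfl | rfl | ⟨hq1, hq2⟩
        · exact absurd rfl hpq
        · exact hnadj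
        · exact hy3 q hq1 hq2
        · exact fun h => hnadj h.symm
        · exact absurd rfl hpq
        · exact hy3' q hq1 hq2
        · exact fun h => hy3 p hp1 hp2 h.symm
        · exact fun h => hy3' p hp1 hp2 h.symm
        · exact hJ hp1 hq1 hpq
      have hcardNew := hmax _ hind
      rw [Finset.card_insert_of_notMem, Finset.card_insert_of_notMem,
        Finset.card_erase_of_mem hu] at hcardNew
      · have : 0 < J.card := Finset.card_pos.2 ⟨u, hu⟩
        omega
      · intro hm
        exact hy2' (Finset.mem_of_mem_erase hm)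
      · intro hm
        rcases Finset.mem_insert.1 hm with h | hm
        · exact hne h
        · exact hy2 (Finset.mem_of_mem_erase hm)
    apply hno
    obtain ⟨hu1, _, _⟩ := hpriv y1 h1
    obtain ⟨hu2, _, _⟩ := hpriv y2 h2
    obtain ⟨hu3, _, _⟩ := hpriv y3 h3
    have hL := hasC_of_list (G := G) [u, y1, y2, y3] (by
        simp only [List.nodup_cons, List.mem_cons, List.not_mem_nil, or_false, not_or,
          List.nodup_nil, and_true, not_false_eq_true]
        exact ⟨⟨hu1.ne, hu2.ne, hu3.ne⟩, ⟨h12, h13⟩, h23⟩)
      (by simp [List.isChain_cons_cons, hu1, hadj y1 h1 y2 h2 h12, hadj y2 h2 y3 h3 h23])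
      (by simp) (by simpa using hu3.symm)
    simpa using hL
  have hdeg := hδ u
  rw [← hN] at hdeg
  have hpos : 0 < J.card := Finset.card_pos.2 ⟨u, hu⟩
  omega

/-- The spectrum theorem, in full generality. -/
theorem spectrum_all [Fintype V] [Inhabited V] (k a : ℕ)
    (hδ : ∀ v, k ≤ (Finset.univ.filter (fun y => G.Adj v y)).card)
    (hα : ∀ s : Finset V, G.IsIndepSet (s : Set V) → s.card ≤ a) :
    ∀ m, 3 ≤ m → m + a ≤ k + 2 → HasC G m := by
  intro m
  induction m using Nat.strong_induction_on with
  | _ m ih =>
    intro hm hma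
    by_cases hm3 : m = 3
    · rw [hm3]
      exact hasC_three k a hδ hα (by omega)
    by_cases hm4 : m = 4
    · rw [hm4]
      exact hasC_four k a hδ hα (by omega)
    have h1 := ih (m - 2) (by omega) (by omega) (by omega)
    have h2 := step_two k a (m - 2) hδ hα (by omega) (by omega) h1
    rwa [Nat.sub_add_cancel (by omega)] at h2

/-- The Ramsey bound for all lengths `m ≥ 3`. -/
theorem ramsey_bound_all : ∀ (a m : ℕ) (V : Type) [Fintype V] (G : SimpleGraph V), 3 ≤ m →
    (m - 1) * a + a.choose 2 + 1 ≤ Fintype.card V →
    (∀ s : Finset V, G.IsIndepSet (s : Set V) → s.card ≤ a) → HasC G m := by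
  intro a
  induction a with
  | zero =>
    intro m V _ G _ hcard hα
    exfalso
    have h1 : 0 < Fintype.card V := by omega
    obtain ⟨v⟩ := Fintype.card_pos_iff.1 h1
    have := hα {v} (by simp [SimpleGraph.IsIndepSet])
    simp at this
  | succ a ih =>
    intro m V _ G hm hcard hα
    have hpos : 0 < Fintype.card V := by omega
    obtain ⟨v0⟩ := Fintype.card_pos_iff.1 hpos
    letI : Inhabited V := ⟨v0⟩
    by_cases hlow : ∃ v, (Finset.univ.filter (fun y => G.Adj v y)).card + 1 ≤ m + a - 1
    · obtain ⟨v, hv⟩ := hlow
      let W : Type := {x : V // x ≠ v ∧ ¬ G.Adj v x}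
      have hW : Fintype.card W + (Finset.univ.filter (fun y => G.Adj v y)).card + 1
          = Fintype.card V := by
        have h1 : Fintype.card W = (Finset.univ.filter (fun x => x ≠ v ∧ ¬ G.Adj v x)).card :=
          Fintype.card_subtype _
        have h2 : (Finset.univ.filter (fun x => x ≠ v ∧ ¬ G.Adj v x)).card +
            (insert v (Finset.univ.filter (fun y => G.Adj v y))).card = Fintype.card V := by
          rw [← Finset.card_univ, ← Finset.card_union_of_disjoint]
          · congr 1
            ext x
            simp only [Finset.mem_union, Finset.mem_filter, Finset.mem_univ, true_and,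
              Finset.mem_insert]
            tauto
          · rw [Finset.disjoint_left]
            intro x hx hy
            simp only [Finset.mem_filter, Finset.mem_univ, true_and, Finset.mem_insert] at hx hy
            tauto
        rw [Finset.card_insert_of_notMem (by simp)] at h2
        omega
      have hchoose : (a + 1).choose 2 = a + a.choose 2 := by
        rw [Nat.choose_succ_succ' a 1, Nat.choose_one_right]
      obtain ⟨M, rfl⟩ : ∃ M, m = M + 1 := ⟨m - 1, by omega⟩
      have hWcard : (M + 1 - 1) * a + a.choose 2 + 1 ≤ Fintype.card W := by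
        simp only [Nat.add_sub_cancel] at hcard hv ⊢
        rw [hchoose] at hcard
        have : M * (a + 1) = M * a + M := by ring
        omega
      have hα' : ∀ s : Finset W, (G.comap (Subtype.val : W → V)).IsIndepSet (s : Set W) →
          s.card ≤ a := by
        intro s hs
        have h1 := hα (insert v (s.map ⟨Subtype.val, Subtype.val_injective⟩)) ?_
        · rw [Finset.card_insert_of_notMem, Finset.card_map] at h1
          · omega
          · intro hv'
            obtain ⟨x, _, hx⟩ := Finset.mem_map.1 hv'
            exact x.2.1 hx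
        · intro x hx y hy hxy
          simp only [Finset.coe_insert, Set.mem_insert_iff, Finset.coe_map, Set.mem_image,
            Finset.mem_coe, Function.Embedding.coeFn_mk] at hx hy
          rcases hx with rfl | ⟨x', hx', rfl⟩ <;> rcases hy with rfl | ⟨y', hy', rfl⟩
          · exact absurd rfl hxy
          · exact y'.2.2
          · exact fun h => x'.2.2 h.symm
          · exact hs hx' hy' (fun h => hxy (by rw [h]))
      exact (ih (M + 1) W (G.comap Subtype.val) hm hWcard hα').of_comap
        Subtype.val_injective
    · push Not at hlow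
      have hδ : ∀ v, m + a - 1 ≤ (Finset.univ.filter (fun y => G.Adj v y)).card := by
        intro v
        have := hlow v
        omega
      exact spectrum_all (m + a - 1) (a + 1) hδ hα m hm (by omega)

end

end Vale.Agent.Lib.P048
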